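import Crest.Agent.R339.Api

/-! # Row 339, block D2: one Trotter step (operator estimates) -/

set_option autoImplicit false
open Complex

namespace Crest.Agent.R339
variable {E K : Type} [NormedAddCommGroup E] [InnerProductSpace ℂ E]
  [NormedAddCommGroup K] [InnerProductSpace ℂ K] [CompleteSpace K]

theorem trot_smul {A : K →L[ℂ] K} {κ : ℝ} (hA : ‖A‖ ≤ κ) (c : ℝ) : ‖(c : ℂ) • A‖ ≤ |c| * κ := by
  rw [norm_smul, Complex.norm_real, Real.norm_eq_abs]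
  gcongr

theorem trot_sin (t : ℝ) : |Real.sin (2 * t) - 2 * t| ≤ 2 * t ^ 2 :=
  abs_le_of_sq_le_sq ((Model.a2_sin (2 * t)).trans_eq (by ring)) (by positivity)

theorem trot_u {A B : K →L[ℂ] K} (hA : ‖A‖ ≤ 1) (hB : ‖B‖ ≤ 1) (t : ℝ) :
    ‖(((Real.cos t : ℝ) : ℂ) • (1 : K →L[ℂ] K) - (I * ((Real.sin t : ℝ) : ℂ)) • A) *
      (((Real.cos t : ℝ) : ℂ) • (1 : K →L[ℂ] K) + (I * ((Real.sin t : ℝ) : ℂ)) • B) -
        (1 - (I * (t : ℂ)) • (A - B))‖ ≤ 4 * t ^ 2 := by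
  have e : (((Real.cos t : ℝ) : ℂ) • (1 : K →L[ℂ] K) - (I * ((Real.sin t : ℝ) : ℂ)) • A) *
      (((Real.cos t : ℝ) : ℂ) • (1 : K →L[ℂ] K) + (I * ((Real.sin t : ℝ) : ℂ)) • B) - (1 - (I * (t : ℂ)) • (A - B)) =
      ((Real.cos t ^ 2 - 1 : ℝ) : ℂ) • (1 : K →L[ℂ] K) + ((t - Real.sin t * Real.cos t : ℝ) : ℂ) • I • (A - B) +
        ((Real.sin t ^ 2 : ℝ) : ℂ) • (A * B) := by
    simp only [sub_mul, mul_add, smul_mul_assoc, mul_smul_comm, one_mul, mul_one, ofReal_sub, ofReal_mul, ofReal_pow,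
      ofReal_one]
    match_scalars
    · ring
    · ring
    · ring
    · linear_combination (-(Complex.sin t) ^ 2) * I_mul_I
  have h1 := trot_smul (ContinuousLinearMap.norm_id_le (𝕜 := ℂ) (E := K)) (Real.cos t ^ 2 - 1)
  have h2 := trot_smul (A := I • (A - B)) (κ := 2) (by
    rw [norm_smul, norm_I, one_mul]
    linarith [norm_sub_le A B]) (t - Real.sin t * Real.cos t)
  have h3 := trot_smul ((norm_mul_le A B).trans (mul_le_one₀ hA (norm_nonneg _) hB)) (Real.sin t ^ 2)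
  have h4 := trot_sin t
  have h5 : Real.sin t ^ 2 ≤ t ^ 2 := Real.sin_sq_le_sq
  rw [Real.sin_two_mul, show 2 * Real.sin t * Real.cos t - 2 * t = -2 * (t - Real.sin t * Real.cos t) by ring, abs_mul,
    abs_neg, abs_two] at h4
  rw [show Real.cos t ^ 2 - 1 = -Real.sin t ^ 2 by rw [Real.cos_sq']; ring, abs_neg] at h1
  rw [abs_of_nonneg (sq_nonneg _)] at h1 h3
  rw [e, show Real.cos t ^ 2 - 1 = -Real.sin t ^ 2 by rw [Real.cos_sq']; ring]
  refine norm_add₃_le.trans ?_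
  have h1' : ‖((-Real.sin t ^ 2 : ℝ) : ℂ) • (1 : K →L[ℂ] K)‖ ≤ Real.sin t ^ 2 * 1 := h1
  linarith

theorem trot_l {Z P Q Q' : K →L[ℂ] K} {t : ℝ} (hZ : ‖Z‖ ≤ 1) (hP : ‖P‖ ≤ 1) (hQ : ‖Q‖ ≤ 1)
    (hQ' : ‖Q' - Q‖ ≤ 2 * |t|) :
    ‖Z + ((-2 : ℂ) • (((Real.cos (2 * t) : ℝ) : ℂ) • Z - ((Real.sin (2 * t) : ℝ) : ℂ) • P) +
      (((Real.cos (2 * t) : ℝ) : ℂ) • (((Real.cos (2 * t) : ℝ) : ℂ) • Z - ((Real.sin (2 * t) : ℝ) : ℂ) • P) +
        ((Real.sin (2 * t) : ℝ) : ℂ) • Q')) - ((2 * t : ℝ) : ℂ) • (P + Q)‖ ≤ 14 * t ^ 2 := by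
  have h4 := trot_sin t
  have h5 : 1 - Real.cos (2 * t) ≤ 2 * t ^ 2 := by linarith [Real.one_sub_sq_div_two_le_cos (x := 2 * t)]
  have h6 := Real.cos_le_one (2 * t)
  have h7 := Real.neg_one_le_cos (2 * t)
  have h8 := Real.abs_sin_le_one (2 * t)
  have h9 : |Real.sin (2 * t)| * (2 * |t|) ≤ 4 * t ^ 2 := by
    have := Real.abs_sin_le_abs (x := 2 * t)
    rw [abs_mul, abs_two] at this
    nlinarith [abs_nonneg t, sq_abs t]
  generalize Real.cos (2 * t) = c at *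
  generalize Real.sin (2 * t) = s at *
  have e : Z + ((-2 : ℂ) • ((c : ℂ) • Z - (s : ℂ) • P) + ((c : ℂ) • ((c : ℂ) • Z - (s : ℂ) • P) + (s : ℂ) • Q')) -
      ((2 * t : ℝ) : ℂ) • (P + Q) = (((1 - c) ^ 2 : ℝ) : ℂ) • Z + ((s * (1 - c) : ℝ) : ℂ) • P +
        (((s - 2 * t : ℝ) : ℂ) • (P + Q) + (s : ℂ) • (Q' - Q)) := by
    push_cast
    module
  have h1 := trot_smul hZ ((1 - c) ^ 2)
  have h2 := trot_smul hP (s * (1 - c))
  have h3 := trot_smul (A := P + Q) (κ := 2) (by linarith [norm_add_le P Q]) (s - 2 * t)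
  have h10 := trot_smul hQ' s
  rw [abs_of_nonneg (sq_nonneg _)] at h1
  rw [abs_mul, abs_of_nonneg (sub_nonneg.2 h6)] at h2
  rw [e]
  refine norm_add₃_le.trans ((add_le_add_right (norm_add_le _ _) _).trans ?_)
  nlinarith

theorem trot_c1 {U U' V V' : K →L[ℂ] K} {δ δ' : ℝ} (hU' : U' ∈ unitary (K →L[ℂ] K)) (hV : V ∈ unitary (K →L[ℂ] K))
    (h : ‖U - V‖ ≤ δ) (h' : ‖U' - V'‖ ≤ δ') : ‖U' * U - V' * V‖ ≤ δ + δ' := by
  rw [show U' * U - V' * V = U' * (U - V) + (U' - V') * V by noncomm_ring]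
  refine (norm_add_le _ _).trans ?_
  rw [CStarRing.norm_mem_unitary_mul _ hU', CStarRing.norm_mul_mem_unitary _ hV]
  exact add_le_add h h'

theorem trot_c2 {U V L L' D D' : K →L[ℂ] K} {δ ε ε' κ : ℝ} (hU : U ∈ unitary (K →L[ℂ] K)) (hD : Commute D' V)
    (h : ‖U - V‖ ≤ δ) (h1 : ‖L - D‖ ≤ ε) (h2 : ‖L' - D'‖ ≤ ε') (hκ : ‖D'‖ ≤ κ) :
    ‖L + star U * L' * U - (D' + D)‖ ≤ ε + ε' + 2 * κ * δ := by
  have e : L + star U * L' * U - (D' + D) =
      L - D + star U * ((L' - D') * U) + star U * (D' * (U - V) - (U - V) * D') := by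
    simp only [mul_sub, sub_mul, hD.eq, ← mul_assoc, Unitary.star_mul_self_of_mem hU, one_mul]
    abel
  rw [e]
  refine norm_add₃_le.trans ?_
  rw [CStarRing.norm_mem_unitary_mul _ (Unitary.star_mem hU), CStarRing.norm_mem_unitary_mul _ (Unitary.star_mem hU),
    CStarRing.norm_mul_mem_unitary _ hU]
  have h3 := (norm_mul_le _ _).trans (mul_le_mul hκ h (norm_nonneg _) ((norm_nonneg _).trans hκ))
  have h4 := (norm_mul_le _ _).trans (mul_le_mul h hκ (norm_nonneg _) ((norm_nonneg _).trans h))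
  linarith [norm_sub_le (D' * (U - V)) ((U - V) * D')]

namespace Model
variable (M : Model E K)

theorem trot_WZ2 (f : E) : M.WZ f * M.WZ f = M.WZ (f + f) := by
  rw [M.WZ_mul]
  simp [inner_self_eq_norm_sq_to_K, ← Complex.ofReal_pow]

theorem trot_conj {T : K →L[ℂ] K} (hT : Commute M.X T) :
    star (M.RX (-(Real.pi / 4))) * (M.Y * T) * M.RX (-(Real.pi / 4)) = M.Z * T := by
  rw [mul_assoc, mul_assoc, ← (M.RX_commute hT _).eq, ← mul_assoc, ← mul_assoc, M.RX_conj_Y,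
    show 2 * -(Real.pi / 4) = -(Real.pi / 2) by ring]
  simp

theorem trot_stepU (f : E) (t : ℝ) :
    ‖M.RX (Real.pi / 4) * M.WZ f * M.RX t * M.WZ (-(f + f)) * M.RX (-t) * M.WZ f * M.RX (-(Real.pi / 4)) -
      (1 - I • (M.Z * ((2 * t : ℝ) : ℂ) • M.sinW (f + f)))‖ ≤ 4 * t ^ 2 := by
  have hS := M.WZ_mem f
  have e1 : M.WZ f * M.RX t * M.WZ (-f) =
      ((Real.cos t : ℝ) : ℂ) • (1 : K →L[ℂ] K) - (I * ((Real.sin t : ℝ) : ℂ)) • (M.X * M.WZ (-(f + f))) := by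
    have := M.X_WZ (-f)
    rw [neg_neg] at this
    rw [RX, mul_sub, sub_mul, mul_smul_comm, mul_smul_comm, smul_mul_assoc, smul_mul_assoc, mul_one, ← this, mul_assoc,
      M.trot_WZ2, ← neg_add, ← M.WZ_star f, Unitary.mul_star_self_of_mem hS]
  have e2 : M.WZ (-f) * M.RX (-t) * M.WZ f =
      ((Real.cos t : ℝ) : ℂ) • (1 : K →L[ℂ] K) + (I * ((Real.sin t : ℝ) : ℂ)) • (M.X * M.WZ (f + f)) := by
    rw [RX, mul_sub, sub_mul, mul_smul_comm, mul_smul_comm, smul_mul_assoc, smul_mul_assoc, mul_one, ← M.X_WZ, mul_assoc,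
      M.trot_WZ2, ← M.WZ_star f, Unitary.star_mul_self_of_mem hS, Real.cos_neg, Real.sin_neg, ofReal_neg, mul_neg,
      neg_smul, sub_neg_eq_add]
  have e3 : M.X * M.WZ (-(f + f)) - M.X * M.WZ (f + f) = (2 : ℂ) • (M.Y * M.sinW (f + f)) := by
    simp only [M.WZ_eq, M.cosW_neg, M.sinW_neg, Y, mul_sub, mul_neg, smul_neg, mul_smul_comm, smul_mul_assoc, mul_assoc]
    module
  have h := trot_u (unit_opnorm (mul_mem M.X_mem (M.WZ_mem (-(f + f))))) (unit_opnorm (mul_mem M.X_mem (M.WZ_mem (f + f)))) t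
  rw [← e1, ← e2, e3, ← CStarRing.norm_mul_mem_unitary _ (M.RX_mem (-(Real.pi / 4))),
    ← CStarRing.norm_mem_unitary_mul _ (Unitary.star_mem (M.RX_mem (-(Real.pi / 4)))), ← mul_assoc, mul_sub, sub_mul,
    mul_sub, sub_mul, mul_one, Unitary.star_mul_self_of_mem (M.RX_mem _), smul_smul, mul_smul_comm, smul_mul_assoc,
    M.trot_conj (M.sinW_commute (M.X_W _).symm (M.X_W _).symm).symm, M.RX_star, neg_neg] at h
  rw [mul_smul_comm, smul_smul, show I * ((2 * t : ℝ) : ℂ) = I * t * 2 by push_cast; ring, neg_add, ← M.trot_WZ2]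
  simpa only [mul_assoc] using h

theorem trot_stepL (f : E) (t : ℝ) :
    ‖star (M.RX (-(Real.pi / 4))) * (M.Z + star (M.WZ f) * (star (M.RX (-t)) * ((-2 : ℂ) • M.Z +
        star (M.WZ (-(f + f))) * (star (M.RX t) * M.Z * M.RX t) * M.WZ (-(f + f))) * M.RX (-t)) * M.WZ f) *
      M.RX (-(Real.pi / 4)) - ((4 * t : ℝ) : ℂ) • (M.Z * M.cosW (f + f))‖ ≤ 14 * t ^ 2 := by
  have hS := M.WZ_mem f
  have hS2 := M.WZ_mem (-(f + f))
  have hc : ∀ {U A : K →L[ℂ] K}, U ∈ unitary (K →L[ℂ] K) → ‖star U * A * U‖ = ‖A‖ := fun hU => by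
    rw [CStarRing.norm_mul_mem_unitary _ hU, CStarRing.norm_mem_unitary_mul _ (Unitary.star_mem hU)]
  have hZ : ∀ g, star (M.WZ g) * M.Z * M.WZ g = M.Z := fun g => by
    rw [mul_assoc, (M.Z_WZ g).eq, ← mul_assoc, Unitary.star_mul_self_of_mem (M.WZ_mem g), one_mul]
  have hY := unit_opnorm M.Y_mem
  have hG : ‖star (M.WZ (-(f + f))) * M.Y * M.WZ (-(f + f))‖ ≤ 1 := (hc hS2).trans_le hY
  have e1 : star (M.WZ f) * M.Y * M.WZ f + star (M.WZ f) * (star (M.WZ (-(f + f))) * M.Y * M.WZ (-(f + f))) * M.WZ f =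
      (2 : ℂ) • (M.Y * M.cosW (f + f)) := by
    have h1 := M.Y_WZ (-(f + f))
    rw [M.WZ_star, M.WZ_star, ← h1, ← M.Y_WZ, mul_assoc, M.trot_WZ2, ← mul_assoc, ← mul_assoc, ← M.Y_WZ, neg_add,
      ← M.trot_WZ2 (-f)]
    have h2 : M.WZ f * M.WZ (-f) = 1 := by rw [← M.WZ_star f, Unitary.mul_star_self_of_mem hS]
    have h3 : M.WZ (-f) * M.WZ f = 1 := by rw [← M.WZ_star f, Unitary.star_mul_self_of_mem hS]
    simp only [mul_assoc, h3, mul_one]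
    rw [← mul_assoc (M.WZ f), h2, one_mul, M.trot_WZ2, ← neg_add, ← mul_add, ← mul_smul_comm, M.WZ_eq, M.WZ_eq,
      M.cosW_neg, M.sinW_neg, mul_neg, smul_neg]
    congr 1
    module
  rw [M.RX_conj_Z t, mul_add (star (M.WZ _)), add_mul, mul_smul_comm, smul_mul_assoc, mul_smul_comm, smul_mul_assoc, hZ]
  generalize star (M.WZ (-(f + f))) * M.Y * M.WZ (-(f + f)) = G at hG e1 ⊢
  have h := trot_l (t := t) (Q' := star (M.WZ f) * (star (M.RX (-t)) * G * M.RX (-t)) * M.WZ f) (unit_opnorm M.Z_mem)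
    ((hc hS).trans_le hY) ((hc hS).trans_le hG) (by
      rw [← sub_mul, ← mul_sub, hc hS, show star (M.RX (-t)) * G * M.RX (-t) - G =
        star (M.RX (-t)) * (G * (M.RX (-t) - 1)) + (star (M.RX (-t)) - 1) * G by noncomm_ring]
      refine (norm_add_le _ _).trans ?_
      rw [CStarRing.norm_mem_unitary_mul _ (Unitary.star_mem (M.RX_mem _)), M.RX_star, neg_neg]
      have h1 := (norm_mul_le _ _).trans (mul_le_mul hG (M.norm_RX_sub_one (-t)) (norm_nonneg _) zero_le_one)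
      have h2 := (norm_mul_le _ _).trans (mul_le_mul (M.norm_RX_sub_one t) hG (norm_nonneg _) (abs_nonneg _))
      rw [abs_neg] at h1
      linarith)
  rw [e1, ← hc (M.RX_mem (-(Real.pi / 4))), mul_sub, sub_mul, smul_smul, mul_smul_comm, smul_mul_assoc,
    M.trot_conj (M.cosW_commute (M.X_W _).symm (M.X_W _).symm).symm] at h
  have e2 : star (M.WZ f) * (star (M.RX (-t)) * M.Z * M.RX (-t)) * M.WZ f =
      ((Real.cos (2 * t) : ℝ) : ℂ) • M.Z - ((Real.sin (2 * t) : ℝ) : ℂ) • (star (M.WZ f) * M.Y * M.WZ f) := by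
    rw [M.RX_conj_Z, mul_add, add_mul, mul_smul_comm, smul_mul_assoc, mul_smul_comm, smul_mul_assoc, hZ, mul_neg,
      Real.cos_neg, Real.sin_neg, ofReal_neg, neg_smul, sub_eq_add_neg]
  rw [← e2, show ((2 * t : ℝ) : ℂ) * 2 = ((4 * t : ℝ) : ℂ) by push_cast; ring] at h
  simpa only [mul_add, add_mul, mul_smul_comm, smul_mul_assoc] using h

end Model
end Crest.Agent.R339
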